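import Mathlib

set_option linter.unusedSectionVars false
set_option linter.unusedVariables false

/-!
# P125: quadratic variation along a partition is paid by the own measure (deterministic part)
-/

namespace Vale.Agent.P125.J75

open scoped BigOperators

/-- the signed square -/
def psi (h : ℝ) : ℝ := h * |h|

lemma sq_le_psi (a b : ℝ) : (b - a) ^ 2 ≤ 2 * |psi b - psi a| := by
  unfold psi
  rcases abs_cases a with ⟨hA, ha⟩ | ⟨hA, ha⟩ <;> rcases abs_cases b with ⟨hB, hb⟩ | ⟨hB, hb⟩ <;>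
    rw [hA, hB]
  · rcases le_total a b with h | h
    · have := le_abs_self (b * b - a * a)
      nlinarith
    · have := neg_abs_le (b * b - a * a)
      nlinarith
  · have := neg_abs_le (b * -b - a * a)
    nlinarith [sq_nonneg (a + b)]
  · have := le_abs_self (b * b - a * -a)
    nlinarith [sq_nonneg (a + b)]
  · rcases le_total a b with h | h
    · have := le_abs_self (b * -b - a * -a)
      nlinarith
    · have := neg_abs_le (b * -b - a * -a)
      nlinarith

lemma psi_step (a b : ℝ) : |psi b - psi a| ≤ 4 * (|b - a| * |b|) + a ^ 2 - b ^ 2 := by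
  unfold psi
  rcases abs_cases a with ⟨hA, ha⟩ | ⟨hA, ha⟩ <;> rcases abs_cases b with ⟨hB, hb⟩ | ⟨hB, hb⟩ <;>
    rcases abs_cases (b - a) with ⟨hD, hd⟩ | ⟨hD, hd⟩ <;> rw [hA, hB, hD, abs_le] <;>
    constructor <;> nlinarith

/-- the variation of `ψ ∘ G`, one step -/
def TT (G : ℕ → ℝ) (k : ℕ) : ℝ := |psi (G (k + 1)) - psi (G k)|

lemma TT_nonneg (G : ℕ → ℝ) (k : ℕ) : 0 ≤ TT G k := abs_nonneg _

lemma psi_Ico (G : ℕ → ℝ) (a b : ℕ) (hab : a ≤ b) :
    |psi (G b) - psi (G a)| ≤ ∑ k ∈ Finset.Ico a b, TT G k := by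
  induction b, hab using Nat.le_induction with
  | base => simp
  | succ b hab ih =>
    rw [Finset.sum_Ico_succ_top hab]
    have e : psi (G (b + 1)) - psi (G a)
        = (psi (G b) - psi (G a)) + (psi (G (b + 1)) - psi (G b)) := by ring
    rw [e]
    have h1 := le_abs_self (psi (G b) - psi (G a))
    have h2 := neg_abs_le (psi (G b) - psi (G a))
    have h3 := le_abs_self (psi (G (b + 1)) - psi (G b))
    have h4 := neg_abs_le (psi (G (b + 1)) - psi (G b))
    have hT : TT G b = |psi (G (b + 1)) - psi (G b)| := rfl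
    rw [abs_le]
    constructor <;> linarith

lemma psi_part (G : ℕ → ℝ) (p : ℕ → ℕ) (hp : Monotone p) (m : ℕ) :
    ∑ r ∈ Finset.range m, |psi (G (p (r + 1))) - psi (G (p r))|
      ≤ ∑ k ∈ Finset.Ico (p 0) (p m), TT G k := by
  induction m with
  | zero => simp
  | succ m ih =>
    rw [Finset.sum_range_succ,
      ← Finset.sum_Ico_consecutive (TT G) (hp (Nat.zero_le m)) (hp (Nat.le_succ m))]
    exact add_le_add ih (psi_Ico G _ _ (hp (Nat.le_succ m)))

lemma TT_sum (G : ℕ → ℝ) (h0 : G 0 = 0) (n : ℕ) :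
    ∑ k ∈ Finset.range n, TT G k ≤ 4 * ∑ k ∈ Finset.range n, |G (k + 1) - G k| * |G (k + 1)| := by
  have h1 : ∑ k ∈ Finset.range n, TT G k ≤
      ∑ k ∈ Finset.range n, (4 * (|G (k + 1) - G k| * |G (k + 1)|) + (G k ^ 2 - G (k + 1) ^ 2)) := by
    refine Finset.sum_le_sum fun k _ => ?_
    have := psi_step (G k) (G (k + 1))
    unfold TT
    linarith
  rw [Finset.sum_add_distrib, ← Finset.mul_sum,
    Finset.sum_range_sub' (fun k => G k ^ 2) n, h0] at h1
  have := sq_nonneg (G n)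
  linarith

/-- quadratic variation along the partition `p 0 ≤ p 1 ≤ ... ≤ p m ≤ n` -/
theorem james_le (G : ℕ → ℝ) (h0 : G 0 = 0) (n : ℕ) (p : ℕ → ℕ) (hp : Monotone p) (m : ℕ)
    (hpn : p m ≤ n) :
    ∑ r ∈ Finset.range m, (G (p (r + 1)) - G (p r)) ^ 2
      ≤ 8 * ∑ k ∈ Finset.range n, |G (k + 1) - G k| * |G (k + 1)| := by
  have h1 : ∑ r ∈ Finset.range m, (G (p (r + 1)) - G (p r)) ^ 2 ≤
      2 * ∑ r ∈ Finset.range m, |psi (G (p (r + 1))) - psi (G (p r))| := by
    rw [Finset.mul_sum]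
    exact Finset.sum_le_sum fun r _ => sq_le_psi _ _
  have h2 := psi_part G p hp m
  have h3 : ∑ k ∈ Finset.Ico (p 0) (p m), TT G k ≤ ∑ k ∈ Finset.range n, TT G k := by
    refine Finset.sum_le_sum_of_subset_of_nonneg ?_ fun k _ _ => TT_nonneg G k
    intro k hk
    have := (Finset.mem_Ico.mp hk).2
    exact Finset.mem_range.mpr (by omega)
  have h4 := TT_sum G h0 n
  linarith

end Vale.Agent.P125.J75
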