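import Vale.Agent.P125.P32.Asm_32
import Vale.Agent.P125.J75.Det

set_option linter.unusedSectionVars false
set_option linter.unusedVariables false

/-!
# P125: the polynomial rate for the quadratic variation (James) norm of the partial sums
-/

namespace Vale.Agent.P125.J75

open scoped BigOperators
open Vale.Agent.P125.Dich Vale.Agent.P125.P32

theorem stQ_all : StQ := by
  have hLib : StLib := stLib_66
  have hSm : StSmall := stSmall_93
  have hOwn : StOwn := stOwn_33
  have hT1 : StTriv1 := stTriv1_69 hSm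
  have hT2 : StTriv2 := stTriv2_85 hSm
  have hRem : StRem := stRem_32 hSm hT1
  have hSqrt : StSqrt := stSqrt_33
  have hBlk : StBlk := stBlk_1 hLib hSm hT2 hSqrt
  have hDual : StDual := stDual_51
  have hOwnT : StOwnT := stOwnT_27 hOwn
  have hDown : StDown := stDown_73 hOwnT hSm
  have hBack : StBack := stBack_88 hSm
  have hEn : StEn := stEn_30
  have hBB : StBB := stBB_38 hSm
  have hXi : StXi := stXi_87 hSm hEn hBB
  have hR : StR := stR_14 hSm hDual hDown hBack hXi
  exact stQ_64 hSm hRem hBlk hR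

/-- the own measure quantity has the polynomial rate -/
theorem om_bound {S : Type} [Fintype S] [DecidableEq S] (μ : S → ℝ) (P : Matrix S S ℝ)
    (hc : IsChain μ P) (n : ℕ) (f : S → Fin n → ℝ) (t : ℕ) (ht : 1 ≤ t) :
    ∑ k, ∑ x, ∑ y, μ x * (P ^ t) x y * (|f y k - f x k| * |F f k y - F f k x|) ≤
      12 * (t : ℝ) ^ (11 / 6 : ℝ) * U μ P f := by
  have L := stLib_66 S μ P hc
  obtain ⟨-, -, -, -, -, -, hU, -⟩ := stSmall_93 S μ P hc L n f
  have hA : ∀ k, ∑ x, ∑ y, μ x * (P ^ t) x y * (|f y k - f x k| * |F f k y - F f k x|) ≤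
      (t : ℝ) * (∑ a, ∑ b, μ a * P a b * (|f b k - f a k| * |F f k b - F f k a|))
        + 2 * ∑ r ∈ Finset.range t, Qk μ P f r k := by
    intro k
    have h := P3241.stepA hc (fun x => f x k) (F f k) t
    simp only [Qk_eq_10 hc] at h
    exact h
  have hD : ∑ k, ∑ a, ∑ b, μ a * P a b * (|f b k - f a k| * |F f k b - F f k a|) ≤ U μ P f := by
    unfold U
    rw [Finset.sum_comm]
    refine Finset.sum_le_sum fun a _ => ?_
    rw [Finset.sum_comm]
    refine Finset.sum_le_sum fun b _ => ?_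
    rw [← Finset.mul_sum]
    refine mul_le_mul_of_nonneg_left ?_ (mul_nonneg (hc.1 a) (hc.2.2.1 a b))
    have h2 : ∑ k, |f b k - f a k| * |F f k b - F f k a| ≤ ∑ k, |f b k - f a k| * ell f a b :=
      Finset.sum_le_sum fun k _ =>
        mul_le_mul_of_nonneg_left (F_sub_le_10 f k a b) (abs_nonneg _)
    refine h2.trans (le_of_eq ?_)
    rw [← Finset.sum_mul, sq]
    rfl
  have hstep2 : ∑ k, ∑ x, ∑ y, μ x * (P ^ t) x y * (|f y k - f x k| * |F f k y - F f k x|) ≤
      (t : ℝ) * U μ P f + 2 * ∑ r ∈ Finset.range t, Qsum μ P f r := by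
    refine (Finset.sum_le_sum fun k _ => hA k).trans ?_
    rw [Finset.sum_add_distrib, ← Finset.mul_sum, ← Finset.mul_sum]
    have e : ∑ k, ∑ r ∈ Finset.range t, Qk μ P f r k = ∑ r ∈ Finset.range t, Qsum μ P f r := by
      rw [Finset.sum_comm]
      rfl
    rw [e]
    have := mul_le_mul_of_nonneg_left hD (Nat.cast_nonneg t : (0 : ℝ) ≤ t)
    linarith
  obtain ⟨τ, hτ, hsc⟩ := scalar_77 t ht
  have hq := stQ_all S μ P hc L n f τ
  obtain ⟨K, hK⟩ : ∃ K : ℝ, K = Real.sqrt (t * τ) + τ + (3 / 2) * t * (τ : ℝ) ^ (-(1 / 4) : ℝ) :=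
    ⟨_, rfl⟩
  have hτ0 : (0 : ℝ) ≤ (τ : ℝ) ^ (-(1 / 4) : ℝ) := Real.rpow_nonneg (by positivity) _
  have hb : ∀ r : ℕ, r ≤ t → Qsum μ P f r ≤ K * U μ P f := by
    intro r hr
    refine (hq r hτ).trans ?_
    refine mul_le_mul_of_nonneg_right ?_ hU
    rw [hK]
    have hr' : (r : ℝ) ≤ t := by exact_mod_cast hr
    have h1 : Real.sqrt (r * τ) ≤ Real.sqrt (t * τ) :=
      Real.sqrt_le_sqrt (mul_le_mul_of_nonneg_right hr' (by positivity))
    have h3 : (3 / 2) * (r : ℝ) * (τ : ℝ) ^ (-(1 / 4) : ℝ) ≤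
        (3 / 2) * (t : ℝ) * (τ : ℝ) ^ (-(1 / 4) : ℝ) :=
      mul_le_mul_of_nonneg_right (by linarith) hτ0
    linarith
  have hsum : ∑ r ∈ Finset.range t, Qsum μ P f r ≤ ∑ r ∈ Finset.range t, (K * U μ P f) := by
    refine Finset.sum_le_sum fun r hr => ?_
    have hr' := Finset.mem_range.mp hr
    exact hb r (by omega)
  rw [Finset.sum_const, Finset.card_range, nsmul_eq_mul] at hsum
  rw [← hK] at hsc
  have := mul_le_mul_of_nonneg_right hsc hU
  nlinarith [hstep2, hsum, this]

/-- the profile of a vector -/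
def prof {n : ℕ} (v : Fin n → ℝ) (k : ℕ) : ℝ := ∑ l : Fin n, if l.val < k then v l else 0

lemma prof_zero {n : ℕ} (v : Fin n → ℝ) : prof v 0 = 0 := by
  unfold prof
  simp

lemma prof_succ_sub {n : ℕ} (v : Fin n → ℝ) (i : Fin n) :
    prof v (i.val + 1) - prof v i.val = v i := by
  unfold prof
  rw [← Finset.sum_sub_distrib, Finset.sum_eq_single i]
  · simp
  · intro j _ hj
    have hj' : j.val ≠ i.val := fun h => hj (Fin.ext h)
    by_cases h1 : j.val < i.val
    · have h2 : j.val < i.val + 1 := by omega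
      simp [h1, h2]
    · have h2 : ¬ j.val < i.val + 1 := by omega
      simp [h1, h2]
  · intro h
    exact absurd (Finset.mem_univ _) h

lemma prof_succ_eq {S : Type} {n : ℕ} (f : S → Fin n → ℝ) (x y : S) (k : Fin n) :
    prof (fun l => f y l - f x l) (k.val + 1) = F f k y - F f k x := by
  rw [F_sub_10]
  unfold prof
  refine Finset.sum_congr rfl fun l _ => ?_
  have : (l.val < k.val + 1) ↔ l ≤ k := by
    rw [Fin.le_def]
    omega
  by_cases hl : l.val < k.val + 1
  · rw [if_pos hl, if_pos (this.mp hl)]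
  · rw [if_neg hl, if_neg (fun hh => hl (this.mpr hh))]

/-- **polynomial rate for the quadratic variation norm** -/
theorem james_rate : ∀ t : ℕ, 1 ≤ t →
    ∀ (n : ℕ) (S : Type) [Fintype S] [DecidableEq S] (μ : S → ℝ) (P : Matrix S S ℝ),
      (∀ i, 0 ≤ μ i) → ∑ i, μ i = 1 → (∀ i j, 0 ≤ P i j) → (∀ i, ∑ j, P i j = 1) →
      (∀ i j, μ i * P i j = μ j * P j i) → ∀ (f : S → Fin n → ℝ) (m : ℕ) (p : S → S → ℕ → ℕ),
        (∀ i j, Monotone (p i j)) → (∀ i j, p i j m ≤ n) →
        ∑ i, ∑ j, μ i * (P ^ t) i j *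
            ∑ r ∈ Finset.range m,
              ((∑ l : Fin n, if l.val < p i j (r + 1) then f j l - f i l else 0) -
                (∑ l : Fin n, if l.val < p i j r then f j l - f i l else 0)) ^ 2 ≤
          96 * (t : ℝ) ^ (11 / 6 : ℝ) *
            ∑ i, ∑ j, μ i * P i j * (∑ l : Fin n, |f j l - f i l|) ^ 2 := by
  intro t ht n S _ _ μ P h0 h1 h2 h3 h4 f m p hp hpn
  have hc : IsChain μ P := ⟨h0, h1, h2, h3, h4⟩
  have hct : IsChain μ (P ^ t) := isChain_pow hc t
  have hpt : ∀ i j, ∑ r ∈ Finset.range m,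
      ((∑ l : Fin n, if l.val < p i j (r + 1) then f j l - f i l else 0) -
        (∑ l : Fin n, if l.val < p i j r then f j l - f i l else 0)) ^ 2 ≤
      8 * ∑ k, (|f j k - f i k| * |F f k j - F f k i|) := by
    intro i j
    have h := james_le (prof (fun l => f j l - f i l)) (prof_zero _) n (p i j) (hp i j) m (hpn i j)
    have hr : ∑ k ∈ Finset.range n,
        |prof (fun l => f j l - f i l) (k + 1) - prof (fun l => f j l - f i l) k| *
          |prof (fun l => f j l - f i l) (k + 1)|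
        = ∑ k : Fin n, (|f j k - f i k| * |F f k j - F f k i|) := by
      rw [Finset.sum_range]
      refine Finset.sum_congr rfl fun k _ => ?_
      rw [prof_succ_sub, prof_succ_eq]
    rw [hr] at h
    exact h
  have e : 8 * ∑ k, ∑ x, ∑ y, μ x * (P ^ t) x y * (|f y k - f x k| * |F f k y - F f k x|)
      = ∑ x, ∑ y, μ x * (P ^ t) x y * (8 * ∑ k, (|f y k - f x k| * |F f k y - F f k x|)) := by
    rw [Finset.sum_comm, Finset.mul_sum]
    refine Finset.sum_congr rfl fun x _ => ?_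
    rw [Finset.sum_comm, Finset.mul_sum]
    refine Finset.sum_congr rfl fun y _ => ?_
    rw [← Finset.mul_sum]
    ring
  have hom := om_bound μ P hc n f t ht
  have hfin : ∑ i, ∑ j, μ i * (P ^ t) i j *
      ∑ r ∈ Finset.range m,
        ((∑ l : Fin n, if l.val < p i j (r + 1) then f j l - f i l else 0) -
          (∑ l : Fin n, if l.val < p i j r then f j l - f i l else 0)) ^ 2 ≤
      8 * ∑ k, ∑ x, ∑ y, μ x * (P ^ t) x y * (|f y k - f x k| * |F f k y - F f k x|) := by
    rw [e]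
    refine Finset.sum_le_sum fun x _ => Finset.sum_le_sum fun y _ => ?_
    exact mul_le_mul_of_nonneg_left (hpt x y) (mul_nonneg (h0 x) (hct.2.2.1 x y))
  have hU : U μ P f = ∑ i, ∑ j, μ i * P i j * (∑ l : Fin n, |f j l - f i l|) ^ 2 := rfl
  rw [← hU]
  linarith

end Vale.Agent.P125.J75
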